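import Vale.Agent.P254.SP.IfaceB
import Vale.Agent.P254.SP.H620.Field
import Vale.Agent.P254.S.H692.Dual

/-!
# P254, block SP, row SP-VAR: `Var ⟨e,∇φ⟩ ≤ Υ_e + sup_w { 2 L(w) - E|w|² - E|Dw|² }`
-/

open MeasureTheory Filter Matrix
open scoped ENNReal Topology

noncomputable section

namespace Vale.Agent.P254.SP.H692

open Vale.Agent.P227.M Vale.Agent.P254.S Vale.Agent.P254.S692
open Vale.Agent.P254.S130 (gQ Ex_eq MBL BL)
open Vale.Agent.P254.SP620 (mbl_fc mblH ae_good diff_fc Fr_orth)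

variable {n : ℕ}

/-- sup form of the dual variance bound, Lipschitz functions, trigonometric test functions -/
theorem dual_sup {u : E n → ℝ} {K : NNReal} (hu : LipschitzWith K u) {C : ℝ}
    (h : ∀ v : E n → ℝ, TP v → 2 * ∑ i, ∫ z, pd i u z * pd i v z ∂(gQ n)
      - (∑ i, ∫ z, pd i v z ^ 2 ∂(gQ n) + ∑ i, ∑ a, ∫ z, pd a (pd i v) z ^ 2 ∂(gQ n)) ≤ C) :
    ∫ z, u z ^ 2 ∂(gQ n) - (∫ z, u z ∂(gQ n)) ^ 2 ≤ C := by
  refine le_of_forall_pos_le_add fun ε hε => ?_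
  obtain ⟨v, hv, κ, hk⟩ := dense_NN (gm_lip hu).memLp hε
  have ht := TP_of hv
  have gu := gm_lip hu
  have gn := ht.gm_NN
  set m := ∫ z, u z ∂(gQ n) with hm
  have h1 := h v ht
  rw [← int_NN hu ht, ← int_NN_sq ht] at h1
  have h2 := int_NN_zero ht
  have e1 : ∫ z, (u z - (NN v z + κ)) ^ 2 ∂(gQ n) =
      ∫ z, u z ^ 2 ∂(gQ n) - 2 * ∫ z, u z * NN v z ∂(gQ n) + ∫ z, NN v z ^ 2 ∂(gQ n) -
        2 * κ * m + κ ^ 2 := by
    have e2 : ∀ z, (u z - (NN v z + κ)) ^ 2 = ((u z ^ 2 - 2 * (u z * NN v z) + NN v z ^ 2) +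
        (2 * κ * NN v z - 2 * κ * u z)) + κ ^ 2 := fun z => by ring
    simp only [e2]
    have i1 := gu.sq.integrable
    have i2 := (gu.mul gn).integrable.const_mul 2
    have i3 := gn.sq.integrable
    have i4 := gn.integrable.const_mul (2 * κ)
    have i5 := gu.integrable.const_mul (2 * κ)
    have j1 : Integrable (fun z => u z ^ 2 - 2 * (u z * NN v z)) (gQ n) := i1.sub i2
    have j2 : Integrable (fun z => u z ^ 2 - 2 * (u z * NN v z) + NN v z ^ 2) (gQ n) := j1.add i3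
    have j3 : Integrable (fun z => 2 * κ * NN v z - 2 * κ * u z) (gQ n) := i4.sub i5
    have j4 : Integrable (fun z => u z ^ 2 - 2 * (u z * NN v z) + NN v z ^ 2 +
        (2 * κ * NN v z - 2 * κ * u z)) (gQ n) := j2.add j3
    rw [integral_add j4 (integrable_const _), integral_add j2 j3, integral_add j1 i3,
      integral_sub i1 i2, integral_sub i4 i5, integral_const_mul, integral_const_mul,
      integral_const_mul, h2, integral_const, probReal_univ]
    simp only [smul_eq_mul, ← hm]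
    ring
  rw [e1] at hk
  nlinarith [sq_nonneg (κ - m)]

/-! ### linear algebra in the frame -/

lemma fc_mulVec (U : E n → Matrix (Fin n) (Fin n) ℝ) (s : E n → Fin n → ℝ) (f : ℝ → ℝ)
    (e : Fin n → ℝ) (z : E n) :
    (fc U s f z).mulVec e = (U z).mulVec (fun i => f (s z i) * xx U e z i) := by
  unfold fc
  rw [← mulVec_mulVec, ← mulVec_mulVec]
  congr 1
  ext i
  rw [mulVec_diagonal]
  rfl

lemma dot_orth {U : Matrix (Fin n) (Fin n) ℝ} (hU : Uᵀ * U = 1) (p q : Fin n → ℝ) :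
    ∑ i, (U.mulVec p) i * (U.mulVec q) i = ∑ i, p i * q i := by
  have h : (U.mulVec p) ⬝ᵥ (U.mulVec q) = p ⬝ᵥ q := by
    rw [dotProduct_mulVec, ← mulVec_transpose, mulVec_mulVec, hU, one_mulVec]
  exact h

lemma dot_fc {U : E n → Matrix (Fin n) (Fin n) ℝ} {s : E n → Fin n → ℝ} {z : E n}
    (hU : (U z)ᵀ * U z = 1) (f h : ℝ → ℝ) (e : Fin n → ℝ) :
    ∑ i, (fc U s f z).mulVec e i * (fc U s h z).mulVec e i
      = ∑ i, f (s z i) * h (s z i) * xx U e z i ^ 2 := by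
  rw [fc_mulVec, fc_mulVec, dot_orth hU]
  exact Finset.sum_congr rfl fun i _ => by ring

/-! ### integrals -/

lemma quad2 {v ρ w : E n → ℝ} (hρ : GM ρ) (hw : GM w)
    (e : v =ᵐ[gQ n] fun z => w z + ρ z) :
    ∫ z, v z ^ 2 ∂(gQ n) = ∫ z, ρ z ^ 2 ∂(gQ n) + 2 * ∫ z, ρ z * w z ∂(gQ n)
      + ∫ z, w z ^ 2 ∂(gQ n) := by
  have e1 : ∫ z, v z ^ 2 ∂(gQ n) = ∫ z, (ρ z ^ 2 + 2 * (ρ z * w z)) + w z ^ 2 ∂(gQ n) := by
    refine integral_congr_ae ?_
    filter_upwards [e] with z hz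
    rw [hz]
    ring
  have i1 := hρ.sq.integrable
  have i2 := (hρ.mul hw).integrable.const_mul 2
  have j1 : Integrable (fun z => ρ z ^ 2 + 2 * (ρ z * w z)) (gQ n) := i1.add i2
  rw [e1, integral_add j1 hw.sq.integrable, integral_add i1 i2, integral_const_mul]

lemma quad1 {m v ρ w : E n → ℝ} (hm : GM m) (hρ : GM ρ) (hw : GM w)
    (e : v =ᵐ[gQ n] fun z => w z + ρ z) :
    2 * ∫ z, m z * v z ∂(gQ n) - ∫ z, v z ^ 2 ∂(gQ n)
      = (2 * ∫ z, m z * ρ z ∂(gQ n) - ∫ z, ρ z ^ 2 ∂(gQ n))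
        + (2 * ∫ z, (m z - ρ z) * w z ∂(gQ n) - ∫ z, w z ^ 2 ∂(gQ n)) := by
  have e1 : ∫ z, m z * v z ∂(gQ n) = ∫ z, m z * w z ∂(gQ n) + ∫ z, m z * ρ z ∂(gQ n) := by
    rw [← integral_add (hm.mul hw).integrable (hm.mul hρ).integrable]
    refine integral_congr_ae ?_
    filter_upwards [e] with z hz
    rw [hz]
    ring
  have e2 : ∫ z, (m z - ρ z) * w z ∂(gQ n) = ∫ z, m z * w z ∂(gQ n) - ∫ z, ρ z * w z ∂(gQ n) := by
    rw [← integral_sub (hm.mul hw).integrable (hρ.mul hw).integrable]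
    exact integral_congr_ae (ae_of_all _ fun z => by ring)
  rw [quad2 hρ hw e, e1, e2]
  ring

lemma ex_sum {ι : Type*} [Fintype ι] {f : ι → E n → ℝ} (h : ∀ i, GM (f i)) :
    Ex Q (fun z => ∑ i, f i z) = ∑ i, ∫ z, f i z ∂(gQ n) := by
  rw [Ex_eq]
  exact integral_finsetSum _ fun i _ => (h i).integrable

lemma ex_sum2 {ι κ : Type*} [Fintype ι] [Fintype κ] {f : ι → κ → E n → ℝ}
    (h : ∀ i k, GM (f i k)) :
    Ex Q (fun z => ∑ i, ∑ k, f i k z) = ∑ i, ∑ k, ∫ z, f i k z ∂(gQ n) := by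
  rw [Ex_eq, integral_finsetSum _ fun i _ => (GM.sum _ fun k _ => h i k).integrable]
  exact Finset.sum_congr rfl fun i _ => integral_finsetSum _ fun k _ => (h i k).integrable

/-! ### bounded Lipschitz fields -/

lemma gm_bl {f : E n → ℝ} (h : BL f) : GM f := by
  obtain ⟨K, hK⟩ := h.lipschitz
  exact gm_lip hK

lemma bl_mulVec {A : E n → Matrix (Fin n) (Fin n) ℝ} (hA : MBL A) (e : Fin n → ℝ) (i : Fin n) :
    BL fun z => (A z).mulVec e i := by
  show BL fun z => ∑ j, A z i j * e j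
  exact BL.sum _ fun j _ => (hA i j).mul (BL.const _)

lemma pd_mulVec {A : E n → Matrix (Fin n) (Fin n) ℝ} {z : E n}
    (hz : ∀ i j, DifferentiableAt ℝ (fun y => A y i j) z) (e : Fin n → ℝ) (a i : Fin n) :
    pd a (fun y => (A y).mulVec e i) z = (pdM a A z).mulVec e i := by
  show pd a (fun y => ∑ j, A y i j * e j) z = ∑ j, pd a (fun y => A y i j) z * e j
  have e1 : pd a (fun y => ∑ j, A y i j * e j) z = ∑ j, pd a (fun y => A y i j * e j) z :=
    rpd_sum fun j _ => (hz i j).mul_const _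
  rw [e1]
  refine Finset.sum_congr rfl fun j _ => ?_
  show fderiv ℝ (fun y => A y i j * e j) z (ei a) = _
  rw [fderiv_mul_const (hz i j)]
  show e j * pd a (fun y => A y i j) z = _
  ring

/-! ### the column function -/

lemma pd_fe {φ : E n → ℝ} (hφ : ContDiff ℝ 2 φ) (e : Fin n → ℝ) (i : Fin n) (z : E n) :
    pd i (fe φ e) z = (hess φ z).mulVec e i := by
  have e1 : pd i (fe φ e) z = ∑ j, pd i (fun y => e j * pd j φ y) z :=
    rpd_sum fun j _ => ((rad_pd_c1 hφ j).differentiable (by norm_num) z).const_mul _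
  rw [e1]
  show _ = ∑ j, pd i (pd j φ) z * e j
  refine Finset.sum_congr rfl fun j _ => ?_
  show fderiv ℝ (fun y => e j * pd j φ y) z (ei i) = _
  rw [fderiv_const_mul ((rad_pd_c1 hφ j).differentiable (by norm_num) z)]
  show e j * pd i (pd j φ) z = _
  ring

lemma lip_fe {φ : E n → ℝ} (hφ : ContDiff ℝ 2 φ) (hH : MBL (hess φ)) (e : Fin n → ℝ) :
    ∃ K : NNReal, LipschitzWith K (fe φ e) := by
  choose B hB using fun i => (bl_mulVec hH e i).1
  have hd : ∀ z, DifferentiableAt ℝ (fe φ e) z := fun z =>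
    DifferentiableAt.fun_sum fun j _ =>
      ((rad_pd_c1 hφ j).differentiable (by norm_num) z).const_mul _
  refine ⟨(∑ a, |B a|).toNNReal, lipschitzWith_of_nnnorm_fderiv_le (𝕜 := ℝ) hd fun z => ?_⟩
  rw [Real.le_toNNReal_iff_coe_le (Finset.sum_nonneg fun a _ => abs_nonneg _), coe_nnnorm]
  refine ContinuousLinearMap.opNorm_le_bound _ (Finset.sum_nonneg fun a _ => abs_nonneg _)
    fun w => ?_
  rw [fderiv_eq_sum, Real.norm_eq_abs]
  refine (Finset.abs_sum_le_sum_abs _ _).trans ?_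
  show ∑ i, |w i * pd i (fe φ e) z| ≤ (∑ a, |B a|) * ‖w‖
  rw [Finset.sum_mul]
  refine Finset.sum_le_sum fun i _ => ?_
  rw [abs_mul, mul_comm, pd_fe hφ]
  exact mul_le_mul ((hB i z).trans (le_abs_self _)) (abs_coord_le w i) (abs_nonneg _)
    (abs_nonneg _)

lemma continuous_r' (P : F1) : Continuous P.r' :=
  continuous_iff_continuousAt.2 fun x => (P.hr' x).continuousAt

/-- **SP-VAR** -/
theorem stmtVar : StmtVar := by
  intro P n φ V a b M κ U s hD e C hC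
  have hr : MBL (fc U s P.r) := mbl_fc hD.bp hD.fr P.hr (continuous_r' P)
  have hH : MBL (hess φ) := mblH hD.bp hD.fr
  have hφ := hD.bp.C2
  obtain ⟨K, hK⟩ := lip_fe hφ hH e
  rw [Ex_eq, Ex_eq]
  refine dual_sup hK fun v hv => ?_
  -- names
  set m : Fin n → E n → ℝ := fun i z => (hess φ z).mulVec e i with hm
  set ρ : Fin n → E n → ℝ := fun i z => (fc U s P.r z).mulVec e i with hρ
  set w : Fin n → E n → ℝ := fun i z => pd i v z - ρ i z with hw
  set ρ1 : Fin n → Fin n → E n → ℝ := fun k i z => (pdM k (fc U s P.r) z).mulVec e i with hρ1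
  have gm' : ∀ i, GM (m i) := fun i => gm_bl (bl_mulVec hH e i)
  have bρ : ∀ i, BL (ρ i) := fun i => bl_mulVec hr e i
  have gρ : ∀ i, GM (ρ i) := fun i => gm_bl (bρ i)
  have bw : ∀ i, BL (w i) := by
    intro i
    obtain ⟨B, hB⟩ := (hv.d i).bdd
    obtain ⟨L, hL⟩ := (hv.d i).lip
    have h1 : BL (pd i v) := ⟨⟨B, hB⟩, L, fun x y => by
      have := hL.dist_le_mul x y
      rwa [Real.dist_eq, dist_eq_norm] at this⟩
    have h2 : BL fun z => pd i v z + -1 * ρ i z := h1.add ((BL.const (-1)).mul (bρ i))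
    have e1 : w i = fun z => pd i v z + -1 * ρ i z := by
      funext z
      simp only [hw]
      ring
    rw [e1]
    exact h2
  have gw : ∀ i, GM (w i) := fun i => gm_bl (bw i)
  have gw1 : ∀ k i, GM (pd k (w i)) := fun k i => by
    obtain ⟨L, hL⟩ := (bw i).lipschitz
    exact gm_pd_lip hL k
  have gρ1' : ∀ k i, GM (pd k (ρ i)) := fun k i => by
    obtain ⟨L, hL⟩ := (bρ i).lipschitz
    exact gm_pd_lip hL k
  have hae : ∀ᵐ z ∂(gQ n), ∀ i j, DifferentiableAt ℝ (fun y => fc U s P.r y i j) z := by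
    filter_upwards [ae_good hD.bp hD.fr] with z hz
    exact fun i j => diff_fc hD.bp hD.fr P.hr (continuous_r' P) hz i j
  have eρ1 : ∀ k i, ρ1 k i =ᵐ[gQ n] pd k (ρ i) := by
    intro k i
    filter_upwards [hae] with z hz
    exact (pd_mulVec hz e k i).symm
  have gρ1 : ∀ k i, GM (ρ1 k i) := by
    intro k i
    show GM fun z => ∑ j, pd k (fun y => fc U s P.r y i j) z * e j
    refine GM.sum _ fun j _ => ?_
    obtain ⟨L, hL⟩ := (hr i j).lipschitz
    exact (gm_pd_lip hL k).mul (GM.const _)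
  have ev : ∀ i, pd i v =ᵐ[gQ n] fun z => w i z + ρ i z := fun i =>
    ae_of_all _ fun z => by simp [hw]
  have ev1 : ∀ k i, pd k (pd i v) =ᵐ[gQ n] fun z => pd k (w i) z + ρ1 k i z := by
    intro k i
    filter_upwards [hae, eρ1 k i] with z hz hz1
    rw [hz1]
    have hd : DifferentiableAt ℝ (ρ i) z := by
      show DifferentiableAt ℝ (fun y => ∑ j, fc U s P.r y i j * e j) z
      exact DifferentiableAt.fun_sum fun j _ => (hz i j).mul_const _
    have e2 : pd k (w i) z = pd k (pd i v) z - pd k (ρ i) z :=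
      rpd_sub ((hv.d i).diff z) hd
    rw [e2]
    ring
  -- the test field
  have hBL : BLip w := by
    choose B hB using fun i => (bw i).1
    choose L hL using fun i => (bw i).lipschitz
    refine ⟨∑ i, (Real.toNNReal |B i| + L i), fun i => ⟨?_, fun z => ?_⟩⟩
    · refine (hL i).weaken ?_
      calc L i ≤ Real.toNNReal |B i| + L i := le_add_self
        _ ≤ ∑ i, (Real.toNNReal |B i| + L i) :=
          Finset.single_le_sum (f := fun i => Real.toNNReal |B i| + L i)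
            (fun _ _ => zero_le) (Finset.mem_univ i)
    · calc |w i z| ≤ B i := hB i z
        _ ≤ |B i| := le_abs_self _
        _ = ((Real.toNNReal |B i| : NNReal) : ℝ) := (Real.coe_toNNReal _ (abs_nonneg _)).symm
        _ ≤ ((∑ i, (Real.toNNReal |B i| + L i) : NNReal) : ℝ) := by
          refine NNReal.coe_le_coe.2 ?_
          calc Real.toNNReal |B i| ≤ Real.toNNReal |B i| + L i := le_self_add
            _ ≤ ∑ i, (Real.toNNReal |B i| + L i) :=
              Finset.single_le_sum (f := fun i => Real.toNNReal |B i| + L i)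
                (fun _ _ => zero_le) (Finset.mem_univ i)
  have h1 := hC w hBL
  -- evaluate
  have eU : Ups P U s e = 2 * ∑ i, ∫ z, m i z * ρ i z ∂(gQ n) - ∑ i, ∫ z, ρ i z ^ 2 ∂(gQ n)
      - ∑ k, ∑ i, ∫ z, ρ1 k i z ^ 2 ∂(gQ n) := by
    unfold Ups
    have e1 : Ex Q (fun z => ∑ i, P.t (s z i) * xx U e z i ^ 2)
        = ∑ i, ∫ z, m i z * ρ i z ∂(gQ n) := by
      rw [← ex_sum fun i => (gm' i).mul (gρ i)]
      congr 1
      funext z
      have h := dot_fc (s := s) (Fr_orth hD.fr z) P.L P.r e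
      rw [← hD.fr.dec z] at h
      show _ = ∑ i, (hess φ z).mulVec e i * (fc U s P.r z).mulVec e i
      rw [h]
      refine Finset.sum_congr rfl fun i _ => ?_
      rw [← P.r_eq, mul_comm (P.r _)]
    have e2 : Ex Q (fun z => ∑ i, P.r (s z i) ^ 2 * xx U e z i ^ 2)
        = ∑ i, ∫ z, ρ i z ^ 2 ∂(gQ n) := by
      rw [← ex_sum fun i => (gρ i).sq]
      congr 1
      funext z
      have h := dot_fc (s := s) (Fr_orth hD.fr z) P.r P.r e
      have h' : ∑ i, ρ i z ^ 2 = ∑ i, (fc U s P.r z).mulVec e i * (fc U s P.r z).mulVec e i :=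
        Finset.sum_congr rfl fun i _ => by rw [hρ, sq]
      rw [h', h]
      exact Finset.sum_congr rfl fun i _ => by rw [sq (P.r _)]
    have e3 : Ex Q (fun z => ∑ a, ∑ i, ((pdM a (fc U s P.r) z).mulVec e i) ^ 2)
        = ∑ k, ∑ i, ∫ z, ρ1 k i z ^ 2 ∂(gQ n) :=
      ex_sum2 fun k i => (gρ1 k i).sq
    rw [e1, e2, e3]
  have eL : LL P φ U s e w = ∑ i, ∫ z, (m i z - ρ i z) * w i z ∂(gQ n)
      - ∑ k, ∑ i, ∫ z, ρ1 k i z * pd k (w i) z ∂(gQ n) := by
    unfold LL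
    rw [ex_sum fun i => ((gm' i).sub (gρ i)).mul (gw i),
      ex_sum2 fun k i => (gρ1 k i).mul (gw1 k i)]
  have e2 : Ex Q (fun z => ∑ i, w i z ^ 2) = ∑ i, ∫ z, w i z ^ 2 ∂(gQ n) :=
    ex_sum fun i => (gw i).sq
  have e3 : Ex Q (fun z => ∑ k, ∑ i, pd k (w i) z ^ 2)
      = ∑ k, ∑ i, ∫ z, pd k (w i) z ^ 2 ∂(gQ n) := ex_sum2 fun k i => (gw1 k i).sq
  rw [eL, e2, e3] at h1
  rw [eU]
  -- the identities
  have q1 : 2 * ∑ i, ∫ z, pd i (fe φ e) z * pd i v z ∂(gQ n) - ∑ i, ∫ z, pd i v z ^ 2 ∂(gQ n)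
      = (2 * ∑ i, ∫ z, m i z * ρ i z ∂(gQ n) - ∑ i, ∫ z, ρ i z ^ 2 ∂(gQ n))
        + (2 * ∑ i, ∫ z, (m i z - ρ i z) * w i z ∂(gQ n) - ∑ i, ∫ z, w i z ^ 2 ∂(gQ n)) := by
    simp only [Finset.mul_sum, ← Finset.sum_sub_distrib, ← Finset.sum_add_distrib]
    refine Finset.sum_congr rfl fun i _ => ?_
    have h := quad1 (gm' i) (gρ i) (gw i) (ev i)
    simp only [pd_fe hφ]
    exact h
  have q2 : ∑ i, ∑ a, ∫ z, pd a (pd i v) z ^ 2 ∂(gQ n)
      = ∑ k, ∑ i, ∫ z, ρ1 k i z ^ 2 ∂(gQ n) + 2 * ∑ k, ∑ i, ∫ z, ρ1 k i z * pd k (w i) z ∂(gQ n)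
        + ∑ k, ∑ i, ∫ z, pd k (w i) z ^ 2 ∂(gQ n) := by
    rw [Finset.sum_comm]
    simp only [Finset.mul_sum, ← Finset.sum_add_distrib]
    refine Finset.sum_congr rfl fun k _ => Finset.sum_congr rfl fun i _ => ?_
    exact quad2 (gρ1 k i) (gw1 k i) (ev1 k i)
  linarith

end Vale.Agent.P254.SP.H692
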